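import Mathlib

/-!
Lengths of modules of homomorphisms over an Artin algebra, and their behaviour with respect to
short exact sequences.
-/

namespace Vale.Agent.Lib.H16.IT

universe u v

/-- A short exact sequence `0 → A → B → C → 0` of modules. -/
structure SES (R : Type u) [Ring R] (A B C : Type u) [AddCommGroup A] [Module R A]
    [AddCommGroup B] [Module R B] [AddCommGroup C] [Module R C] where
  f : A →ₗ[R] B
  g : B →ₗ[R] C
  inj : Function.Injective f
  surj : Function.Surjective g
  exact : Function.Exact f g

section len

variable (K : Type v) [CommRing K]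

/-- Length of a module as a natural number. -/
noncomputable def len (A : Type*) [AddCommGroup A] [Module K A] : ℕ := (Module.length K A).toNat

variable {K}

lemma len_exact [IsArtinianRing K] {A B C : Type*} [AddCommGroup A] [Module K A]
    [AddCommGroup B] [Module K B] [AddCommGroup C] [Module K C] [Module.Finite K B]
    (f : A →ₗ[K] B) (g : B →ₗ[K] C) (hf : Function.Injective f) (hg : Function.Surjective g)
    (H : Function.Exact f g) : len K B = len K A + len K C := by
  have h1 := Module.length_eq_add_of_exact f g hf hg H
  have hA1 : IsNoetherian K A := isNoetherian_of_injective f hf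
  have hA2 : IsArtinian K A := isArtinian_of_injective f hf
  have hC1 : IsNoetherian K C := isNoetherian_of_surjective g (LinearMap.range_eq_top.2 hg)
  have hC2 : IsArtinian K C := isArtinian_of_surjective B g hg
  have hA := Module.length_ne_top (R := K) (M := A)
  have hC := Module.length_ne_top (R := K) (M := C)
  unfold len
  rw [h1, ENat.toNat_add hA hC]

lemma len_equiv {A B : Type*} [AddCommGroup A] [Module K A]
    [AddCommGroup B] [Module K B] (e : A ≃ₗ[K] B) : len K A = len K B := by
  unfold len
  rw [e.length_eq]

lemma len_pi [IsArtinianRing K] {ι : Type*} [Fintype ι] (A : ι → Type*)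
    [∀ i, AddCommGroup (A i)] [∀ i, Module K (A i)] [∀ i, Module.Finite K (A i)] :
    len K (∀ i, A i) = ∑ i, len K (A i) := by
  unfold len
  rw [Module.length_pi_of_fintype]
  have h : ∀ i, Module.length K (A i) ≠ ⊤ := fun i => Module.length_ne_top
  rw [ENat.toNat_sum (fun i _ => h i)]

/-- A submodule of the same length is everything. -/
lemma eq_top_of_len [IsArtinianRing K] {B : Type*} [AddCommGroup B] [Module K B]
    [Module.Finite K B] (S : Submodule K B) (h : len K B ≤ len K S) : S = ⊤ := by
  by_contra hne
  have h1 := Submodule.length_lt hne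
  have hB := Module.length_ne_top (R := K) (M := B)
  have hS := Module.length_ne_top (R := K) (M := S)
  unfold len at h
  have h2 : Module.length K B ≤ Module.length K S := by
    rw [← ENat.natCast_toNat hB, ← ENat.natCast_toNat hS]
    exact_mod_cast h
  exact absurd h1 (not_lt.2 h2)

end len

section hom

variable (K : Type v) [CommRing K] {R : Type u} [Ring R] [Algebra K R]
variable {A B Y X Z : Type u}
  [AddCommGroup A] [Module R A] [AddCommGroup B] [Module R B] [AddCommGroup Y] [Module R Y]
  [AddCommGroup X] [Module R X] [AddCommGroup Z] [Module R Z]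

/-- The length over `K` of `Hom_R(X, Y)`. -/
noncomputable def hl (R : Type u) [Ring R] [Algebra K R] (X Y : Type u) [AddCommGroup X]
    [Module R X] [AddCommGroup Y] [Module R Y] [Module K Y] [IsScalarTower K R Y] : ℕ :=
  len K (X →ₗ[R] Y)

/-- Precomposition. -/
def preC [Module K Z] [IsScalarTower K R Z] (i : X →ₗ[R] Y) :
    (Y →ₗ[R] Z) →ₗ[K] (X →ₗ[R] Z) where
  toFun h := h ∘ₗ i
  map_add' h h' := by ext x; rfl
  map_smul' c h := by ext x; rfl

/-- Postcomposition. -/
def postC [Module K Z] [IsScalarTower K R Z] [Module K Y] [IsScalarTower K R Y]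
    (i : Y →ₗ[R] Z) : (X →ₗ[R] Y) →ₗ[K] (X →ₗ[R] Z) where
  toFun h := i ∘ₗ h
  map_add' h h' := by ext x; simp
  map_smul' c h := by
    ext x
    simp only [LinearMap.comp_apply, LinearMap.smul_apply, RingHom.id_apply]
    rw [← algebraMap_smul R c (h x), map_smul, algebraMap_smul]

lemma preC_apply [Module K Z] [IsScalarTower K R Z] (i : X →ₗ[R] Y) (h : Y →ₗ[R] Z) :
    preC K i h = h ∘ₗ i := rfl

lemma postC_apply [Module K Z] [IsScalarTower K R Z] [Module K Y] [IsScalarTower K R Y]
    (i : Y →ₗ[R] Z) (h : X →ₗ[R] Y) : postC K i h = i ∘ₗ h := rfl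

include K in
lemma finite_hom [IsArtinianRing K] [Module.Finite K R] [Module.Finite R X]
    [Module K Y] [IsScalarTower K R Y] [Module.Finite R Y] :
    Module.Finite K (X →ₗ[R] Y) := by
  have hY : Module.Finite K Y := Module.Finite.trans R Y
  obtain ⟨n, p, hp⟩ := Module.Finite.exists_fin' R X
  let φ : (X →ₗ[R] Y) →ₗ[K] (Fin n → Y) :=
    { toFun := fun h i => h (p (Pi.single i 1))
      map_add' := fun h h' => by ext i; rfl
      map_smul' := fun c h => by ext i; rfl }
  have hφ : Function.Injective φ := by
    intro h h' hh
    have h1 : h ∘ₗ p = h' ∘ₗ p := by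
      apply LinearMap.pi_ext'
      intro i
      apply LinearMap.ext_ring
      have := congrFun hh i
      simpa [φ] using this
    ext x
    obtain ⟨y, rfl⟩ := hp x
    exact congrArg (fun f => f y) h1
  have := isNoetherian_of_injective φ hφ
  infer_instance

variable {K}

/-- If every map into `Y` from `Z` lifts, then lengths are additive. -/
lemma SES.hl_cov [IsArtinianRing K] [Module.Finite K R] (E : SES R B A Y)
    [Module K A] [IsScalarTower K R A] [Module K B] [IsScalarTower K R B]
    [Module K Y] [IsScalarTower K R Y] [Module.Finite R A] [Module.Finite R Z]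
    (lift : ∀ h : Z →ₗ[R] Y, ∃ h' : Z →ₗ[R] A, E.g ∘ₗ h' = h) :
    hl K R Z A = hl K R Z B + hl K R Z Y := by
  have : Module.Finite K (Z →ₗ[R] A) := finite_hom K
  refine len_exact (postC K E.f) (postC K E.g) ?_ ?_ ?_
  · intro h h' hh
    ext x
    exact E.inj (congrArg (fun f => f x) hh)
  · intro h
    exact lift h
  · intro h
    constructor
    · intro hh
      have h1 : ∀ x, E.g (h x) = 0 := fun x => congrArg (fun f => f x) hh
      choose b hb using fun x => (E.exact (h x)).1 (h1 x)
      refine ⟨{ toFun := b, map_add' := ?_, map_smul' := ?_ }, ?_⟩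
      · intro x y
        apply E.inj
        rw [hb, map_add, map_add, hb, hb]
      · intro r x
        apply E.inj
        rw [hb, map_smul, RingHom.id_apply, map_smul, hb]
      · ext x
        exact hb x
    · rintro ⟨h', rfl⟩
      ext x
      exact E.exact.apply_apply_eq_zero (h' x)

/-- Conversely, additivity of lengths implies lifting. -/
lemma SES.lift_of_hl [IsArtinianRing K] [Module.Finite K R] (E : SES R B A Y)
    [Module K A] [IsScalarTower K R A] [Module K B] [IsScalarTower K R B]
    [Module K Y] [IsScalarTower K R Y] [Module.Finite R A] [Module.Finite R Z]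
    (hlen : hl K R Z B + hl K R Z Y ≤ hl K R Z A) :
    ∀ h : Z →ₗ[R] Y, ∃ h' : Z →ₗ[R] A, E.g ∘ₗ h' = h := by
  have : Module.Finite K (Z →ₗ[R] A) := finite_hom K
  have hfY : Module.Finite R Y := Module.Finite.of_surjective E.g E.surj
  have : Module.Finite K (Z →ₗ[R] Y) := finite_hom K
  have h1 : len K (Z →ₗ[R] A) = len K (Z →ₗ[R] B) + len K (LinearMap.range (postC K (X := Z) E.g)) := by
    refine len_exact (postC K E.f) (LinearMap.rangeRestrict (postC K (X := Z) E.g)) ?_
      (LinearMap.surjective_rangeRestrict _) ?_
    · intro h h' hh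
      ext x
      exact E.inj (congrArg (fun f => f x) hh)
    · intro h
      constructor
      · intro hh
        have hh' : postC K (X := Z) E.g h = 0 := congrArg Subtype.val hh
        have h1 : ∀ x, E.g (h x) = 0 := fun x => congrArg (fun f => f x) hh'
        choose b hb using fun x => (E.exact (h x)).1 (h1 x)
        refine ⟨{ toFun := b, map_add' := ?_, map_smul' := ?_ }, ?_⟩
        · intro x y
          apply E.inj
          rw [hb, map_add, map_add, hb, hb]
        · intro r x
          apply E.inj
          rw [hb, map_smul, RingHom.id_apply, map_smul, hb]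
        · ext x
          exact hb x
      · rintro ⟨h', rfl⟩
        apply Subtype.ext
        ext x
        exact E.exact.apply_apply_eq_zero (h' x)
  have h2 : LinearMap.range (postC K (X := Z) E.g) = ⊤ := by
    apply eq_top_of_len
    unfold hl at hlen
    omega
  intro h
  have : h ∈ LinearMap.range (postC K (X := Z) E.g) := by rw [h2]; trivial
  exact this

/-- If every map from `A` to `Z` extends to `B`, lengths are additive. -/
lemma SES.hl_contra [IsArtinianRing K] [Module.Finite K R] (E : SES R A B Y)
    [Module K Z] [IsScalarTower K R Z] [Module.Finite R Z] [Module.Finite R B]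
    (ext : ∀ h : A →ₗ[R] Z, ∃ h' : B →ₗ[R] Z, h' ∘ₗ E.f = h) :
    hl K R B Z = hl K R Y Z + hl K R A Z := by
  have : Module.Finite K (B →ₗ[R] Z) := finite_hom K
  refine len_exact (preC K E.g) (preC K E.f) ?_ ?_ ?_
  · intro h h' hh
    ext y
    obtain ⟨x, rfl⟩ := E.surj y
    exact congrArg (fun f => f x) hh
  · intro h
    exact ext h
  · intro h
    constructor
    · intro hh
      have hker : LinearMap.ker E.g ≤ LinearMap.ker h := by
        intro x hx
        obtain ⟨a, rfl⟩ := (E.exact x).1 hx
        exact congrArg (fun f => f a) hh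
      refine ⟨((LinearMap.ker E.g).liftQ h hker) ∘ₗ
        (E.g.quotKerEquivOfSurjective E.surj).symm.toLinearMap, ?_⟩
      ext x
      rw [preC_apply]
      simp only [LinearMap.comp_apply, LinearEquiv.coe_coe]
      have : (E.g.quotKerEquivOfSurjective E.surj).symm (E.g x) = (LinearMap.ker E.g).mkQ x := by
        rw [LinearEquiv.symm_apply_eq]
        rfl
      rw [this]
      simp
    · rintro ⟨h', rfl⟩
      ext x
      change h' (E.g (E.f x)) = 0
      rw [E.exact.apply_apply_eq_zero, map_zero]

/-- Conversely, additivity of lengths implies extension of maps. -/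
lemma SES.ext_of_hl [IsArtinianRing K] [Module.Finite K R] (E : SES R A B Y)
    [Module K Z] [IsScalarTower K R Z] [Module.Finite R Z] [Module.Finite R B]
    [Module.Finite R A] (hlen : hl K R Y Z + hl K R A Z ≤ hl K R B Z) :
    ∀ h : A →ₗ[R] Z, ∃ h' : B →ₗ[R] Z, h' ∘ₗ E.f = h := by
  have : Module.Finite K (B →ₗ[R] Z) := finite_hom K
  have : Module.Finite K (A →ₗ[R] Z) := finite_hom K
  have h1 : len K (B →ₗ[R] Z) = len K (Y →ₗ[R] Z) + len K (LinearMap.range (preC K (Z := Z) E.f)) := by
    refine len_exact (preC K E.g) (LinearMap.rangeRestrict (preC K (Z := Z) E.f)) ?_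
      (LinearMap.surjective_rangeRestrict _) ?_
    · intro h h' hh
      ext y
      obtain ⟨x, rfl⟩ := E.surj y
      exact congrArg (fun f => f x) hh
    · intro h
      constructor
      · intro hh
        have hh' : preC K (Z := Z) E.f h = 0 := congrArg Subtype.val hh
        have hker : LinearMap.ker E.g ≤ LinearMap.ker h := by
          intro x hx
          obtain ⟨a, rfl⟩ := (E.exact x).1 hx
          exact congrArg (fun f => f a) hh'
        refine ⟨((LinearMap.ker E.g).liftQ h hker) ∘ₗ
          (E.g.quotKerEquivOfSurjective E.surj).symm.toLinearMap, ?_⟩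
        ext x
        rw [preC_apply]
        simp only [LinearMap.comp_apply, LinearEquiv.coe_coe]
        have : (E.g.quotKerEquivOfSurjective E.surj).symm (E.g x) =
            (LinearMap.ker E.g).mkQ x := by
          rw [LinearEquiv.symm_apply_eq]
          rfl
        rw [this]
        simp
      · rintro ⟨h', rfl⟩
        apply Subtype.ext
        ext x
        change h' (E.g (E.f x)) = 0
        rw [E.exact.apply_apply_eq_zero, map_zero]
  have h2 : LinearMap.range (preC K (Z := Z) E.f) = ⊤ := by
    apply eq_top_of_len
    unfold hl at hlen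
    omega
  intro h
  have : h ∈ LinearMap.range (preC K (Z := Z) E.f) := by rw [h2]; trivial
  exact this

/-- Isomorphic targets. -/
lemma hl_equiv [Module K A] [IsScalarTower K R A] [Module K B] [IsScalarTower K R B]
    (e : A ≃ₗ[R] B) : hl K R Z A = hl K R Z B := by
  refine len_equiv (LinearEquiv.ofLinearMap (postC K e.toLinearMap) (postC K e.symm.toLinearMap) ?_ ?_)
  · ext h x
    simp [postC]
  · ext h x
    simp [postC]

/-- Finite products as targets. -/
lemma hl_pi [IsArtinianRing K] [Module.Finite K R] {ι : Type} [Fintype ι] (V : ι → Type u)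
    [∀ i, AddCommGroup (V i)] [∀ i, Module R (V i)] [∀ i, Module K (V i)]
    [∀ i, IsScalarTower K R (V i)] [∀ i, Module.Finite R (V i)] [Module.Finite R Z] :
    hl K R Z (∀ i, V i) = ∑ i, hl K R Z (V i) := by
  have : ∀ i, Module.Finite K (Z →ₗ[R] V i) := fun i => finite_hom K
  unfold hl
  rw [← len_pi]
  refine len_equiv
    { toFun := fun h i => (LinearMap.proj i) ∘ₗ h
      invFun := fun h => LinearMap.pi h
      map_add' := fun h h' => by ext i x; rfl
      map_smul' := fun c h => by ext i x; rfl
      left_inv := fun h => by ext x; rfl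
      right_inv := fun h => by ext i x; rfl }

end hom

end Vale.Agent.Lib.H16.IT
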