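import Mathlib
import Vale.Agent.Lib.H16.IT.HomLen

/-!
The finite rank argument.
-/

namespace Vale.Agent.Lib.H16.IT

universe u v

/-- In a finite-dimensional space a sequence of vectors has two consecutive redundant ones. -/
lemma exists_stable {W : Type} [Finite W] (c : ℕ → (W → ℚ)) :
    ∃ t, c (t + 1) ∈ Submodule.span ℚ (c '' {r | r < t}) := by
  let U : ℕ →o Submodule ℚ (W → ℚ) :=
    ⟨fun t => Submodule.span ℚ (c '' {r | r < t}), fun a b hab =>
      Submodule.span_mono (Set.image_mono (fun r hr => lt_of_lt_of_le hr hab))⟩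
  obtain ⟨t, ht⟩ := monotone_stabilizes_iff_noetherian.mpr
    (inferInstance : IsNoetherian ℚ (W → ℚ)) U
  refine ⟨t, ?_⟩
  have h1 : c (t + 1) ∈ U (t + 2) := Submodule.subset_span ⟨t + 1, by
    change t + 1 < t + 2
    omega, rfl⟩
  rw [← ht (t + 2) (by omega)] at h1
  exact h1

/-- Lifting along a surjection a map defined on a projective module and extending a given map. -/
lemma lift_of_ext {R : Type u} [Ring R] {A B Y Z P : Type u}
    [AddCommGroup A] [Module R A] [AddCommGroup B] [Module R B] [AddCommGroup Y] [Module R Y]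
    [AddCommGroup Z] [Module R Z] [AddCommGroup P] [Module R P] [Module.Projective R P]
    (E : SES R B A Y) (i : Z →ₗ[R] P) (h : Z →ₗ[R] Y)
    (hext : ∃ h' : P →ₗ[R] Y, h' ∘ₗ i = h) : ∃ h' : Z →ₗ[R] A, E.g ∘ₗ h' = h := by
  obtain ⟨h', rfl⟩ := hext
  obtain ⟨h'', hh⟩ := Module.projective_lifting_property E.g h' E.surj
  exact ⟨h'' ∘ₗ i, by rw [← LinearMap.comp_assoc, hh]⟩

section

variable {K : Type v} [CommRing K] [IsArtinianRing K] {R : Type u} [Ring R] [Algebra K R]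
  [Module.Finite K R]

theorem core {W : Type} [Fintype W] (X : W → Type u)
    [∀ w, AddCommGroup (X w)] [∀ w, Module R (X w)] [∀ w, Module K (X w)]
    [∀ w, IsScalarTower K R (X w)]
    (Y : ℕ → Type u) [∀ s, AddCommGroup (Y s)] [∀ s, Module R (Y s)] [∀ s, Module K (Y s)]
    [∀ s, IsScalarTower K R (Y s)] [∀ s, Module.Finite R (Y s)]
    (A : ℕ → Type u) [∀ s, AddCommGroup (A s)] [∀ s, Module R (A s)] [∀ s, Module K (A s)]
    [∀ s, IsScalarTower K R (A s)] [∀ s, Module.Finite R (A s)]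
    (B : ℕ → Type u) [∀ s, AddCommGroup (B s)] [∀ s, Module R (B s)] [∀ s, Module K (B s)]
    [∀ s, IsScalarTower K R (B s)]
    (Q : ℕ → Type u) [∀ s, AddCommGroup (Q s)] [∀ s, Module R (Q s)]
    [∀ s, Module.Finite R (Q s)] [∀ s, Module.Projective R (Q s)]
    (N : ℕ → Type u) [∀ s, AddCommGroup (N s)] [∀ s, Module R (N s)]
    [∀ s, Module.Finite R (N s)]
    (P : ℕ → Type u) [∀ s, AddCommGroup (P s)] [∀ s, Module R (P s)]
    [∀ s, Module.Finite R (P s)] [∀ s, Module.Projective R (P s)]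
    (Y' : ℕ → Type u) [∀ s, AddCommGroup (Y' s)] [∀ s, Module R (Y' s)]
    [∀ s, Module.Finite R (Y' s)]
    (EQ : ∀ s, SES R (N s) (Q s) (Y s)) (EP : ∀ s, SES R (Y s) (P s) (Y' s))
    (EA : ∀ s, SES R (B s) (A s) (Y s))
    (c : ℕ → W → ℚ)
    (hc : ∀ (t : ℕ) (Z : Type u) [AddCommGroup Z] [Module R Z] [Module.Finite R Z],
      (hl K R Z (A t) : ℚ) - hl K R Z (B t) = ∑ w, c t w * hl K R Z (X w))
    (H1 : ∀ s t, t ≤ s → ∀ h : N s →ₗ[R] Y t, ∃ h' : Q s →ₗ[R] Y t, h' ∘ₗ (EQ s).f = h)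
    (H2 : ∀ s t, t < s → ∀ h : Y s →ₗ[R] Y t, ∃ h' : P s →ₗ[R] Y t, h' ∘ₗ (EP s).f = h)
    (H3 : ∀ s t, t + 2 ≤ s → ∀ h : Y' s →ₗ[R] Y t, ∃ h' : Y' s →ₗ[R] A t,
      (EA t).g ∘ₗ h' = h) :
    ∃ s, Module.Projective R (Y s) := by
  classical
  -- the functionals
  let Φ : ℕ → ((W → ℚ) →ₗ[ℚ] ℚ) := fun s => ∑ w,
    ((hl K R (Q s) (X w) : ℚ) - hl K R (Y s) (X w) - hl K R (N s) (X w)) • LinearMap.proj w
  let Ψ : ℕ → ((W → ℚ) →ₗ[ℚ] ℚ) := fun s => ∑ w,
    ((hl K R (P s) (X w) : ℚ) - hl K R (Y' s) (X w) - hl K R (Y s) (X w)) • LinearMap.proj w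
  have hΦ : ∀ s t, Φ s (c t) = ((hl K R (Q s) (A t) : ℚ) - hl K R (Q s) (B t))
      - ((hl K R (Y s) (A t) : ℚ) - hl K R (Y s) (B t))
      - ((hl K R (N s) (A t) : ℚ) - hl K R (N s) (B t)) := by
    intro s t
    rw [hc t (Q s), hc t (Y s), hc t (N s), ← Finset.sum_sub_distrib, ← Finset.sum_sub_distrib]
    simp only [Φ, LinearMap.sum_apply, LinearMap.smul_apply, LinearMap.proj_apply, smul_eq_mul]
    exact Finset.sum_congr rfl (fun w _ => by ring)
  have hΨ : ∀ s t, Ψ s (c t) = ((hl K R (P s) (A t) : ℚ) - hl K R (P s) (B t))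
      - ((hl K R (Y' s) (A t) : ℚ) - hl K R (Y' s) (B t))
      - ((hl K R (Y s) (A t) : ℚ) - hl K R (Y s) (B t)) := by
    intro s t
    rw [hc t (P s), hc t (Y' s), hc t (Y s), ← Finset.sum_sub_distrib, ← Finset.sum_sub_distrib]
    simp only [Ψ, LinearMap.sum_apply, LinearMap.smul_apply, LinearMap.proj_apply, smul_eq_mul]
    exact Finset.sum_congr rfl (fun w _ => by ring)
  -- exactness along projective modules
  have eQ : ∀ s t, hl K R (Q s) (A t) = hl K R (Q s) (B t) + hl K R (Q s) (Y t) := fun s t =>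
    (EA t).hl_cov (fun h => Module.projective_lifting_property (EA t).g h (EA t).surj)
  have eP : ∀ s t, hl K R (P s) (A t) = hl K R (P s) (B t) + hl K R (P s) (Y t) := fun s t =>
    (EA t).hl_cov (fun h => Module.projective_lifting_property (EA t).g h (EA t).surj)
  have eN : ∀ s t, t ≤ s → hl K R (N s) (A t) = hl K R (N s) (B t) + hl K R (N s) (Y t) :=
    fun s t hst => (EA t).hl_cov (fun h => lift_of_ext (EA t) (EQ s).f h (H1 s t hst h))
  have eY : ∀ s t, t < s → hl K R (Y s) (A t) = hl K R (Y s) (B t) + hl K R (Y s) (Y t) :=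
    fun s t hst => (EA t).hl_cov (fun h => lift_of_ext (EA t) (EP s).f h (H2 s t hst h))
  have eY' : ∀ s t, t + 2 ≤ s →
      hl K R (Y' s) (A t) = hl K R (Y' s) (B t) + hl K R (Y' s) (Y t) :=
    fun s t hst => (EA t).hl_cov (H3 s t hst)
  have cQ : ∀ s t, t ≤ s → hl K R (Q s) (Y t) = hl K R (Y s) (Y t) + hl K R (N s) (Y t) :=
    fun s t hst => (EQ s).hl_contra (H1 s t hst)
  have cP : ∀ s t, t < s → hl K R (P s) (Y t) = hl K R (Y' s) (Y t) + hl K R (Y s) (Y t) :=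
    fun s t hst => (EP s).hl_contra (H2 s t hst)
  have hΦ0 : ∀ s t, t < s → Φ s (c t) = 0 := by
    intro s t hst
    rw [hΦ, eQ s t, eN s t hst.le, eY s t hst, cQ s t hst.le]
    push_cast
    ring
  have hΨ0 : ∀ s t, t + 2 ≤ s → Ψ s (c t) = 0 := by
    intro s t hst
    rw [hΨ, eP s t, eY s t (by omega), eY' s t hst, cP s t (by omega)]
    push_cast
    ring
  obtain ⟨t, ht⟩ := exists_stable c
  have k1 : Φ (t + 1) (c (t + 1)) = 0 := by
    have : Submodule.span ℚ (c '' {r | r < t}) ≤ LinearMap.ker (Φ (t + 1)) := by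
      rw [Submodule.span_le]
      rintro _ ⟨r, hr, rfl⟩
      have hr' : r < t := hr
      exact hΦ0 (t + 1) r (by omega)
    exact this ht
  have k2 : Ψ (t + 1) (c (t + 1)) = 0 := by
    have : Submodule.span ℚ (c '' {r | r < t}) ≤ LinearMap.ker (Ψ (t + 1)) := by
      rw [Submodule.span_le]
      rintro _ ⟨r, hr, rfl⟩
      have hr' : r < t := hr
      exact hΨ0 (t + 1) r (by omega)
    exact this ht
  generalize t + 1 = s at k1 k2
  refine ⟨s, ?_⟩
  -- the identity of `Y s` lifts to `A s`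
  have l1 : hl K R (Y s) (B s) + hl K R (Y s) (Y s) ≤ hl K R (Y s) (A s) := by
    rw [hΦ, eQ s s, eN s s le_rfl, cQ s s le_rfl] at k1
    push_cast at k1
    have : (hl K R (Y s) (B s) : ℚ) + hl K R (Y s) (Y s) = hl K R (Y s) (A s) := by
      linarith
    exact_mod_cast this.le
  obtain ⟨σ, hσ⟩ := (EA s).lift_of_hl l1 LinearMap.id
  have eall : ∀ (Z : Type u) [AddCommGroup Z] [Module R Z] [Module.Finite R Z],
      hl K R Z (A s) = hl K R Z (B s) + hl K R Z (Y s) := by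
    intro Z _ _ _
    refine (EA s).hl_cov (fun h => ⟨σ ∘ₗ h, ?_⟩)
    rw [← LinearMap.comp_assoc, hσ, LinearMap.id_comp]
  have l2 : hl K R (Y' s) (Y s) + hl K R (Y s) (Y s) ≤ hl K R (P s) (Y s) := by
    rw [hΨ, eall (P s), eall (Y' s), eall (Y s)] at k2
    push_cast at k2
    have : (hl K R (Y' s) (Y s) : ℚ) + hl K R (Y s) (Y s) = hl K R (P s) (Y s) := by
      linarith
    exact_mod_cast this.le
  obtain ⟨τ, hτ⟩ := (EP s).ext_of_hl l2 LinearMap.id
  exact Module.Projective.of_split (EP s).f τ hτ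

end

end Vale.Agent.Lib.H16.IT
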