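import Mathlib
import Vale.Agent.Lib.H16.IT.Core

/-!
Syzygies and vanishing of `Ext`.
-/

namespace Vale.Agent.Lib.H16.IT

open CategoryTheory Abelian

universe u v

/-- `IsSyzygy R M n Y`: there is an exact sequence
`0 → Y → P_{n-1} → ... → P_0 → M → 0` with all `P_i` finitely generated projective. -/
inductive IsSyzygy (R : Type u) [Ring R] (M : ModuleCat.{u} R) : ℕ → ModuleCat.{u} R → Prop
  | zero : IsSyzygy R M 0 M
  | succ {n : ℕ} {Y P Y' : ModuleCat.{u} R} (hY : IsSyzygy R M n Y)
      (hproj : Module.Projective R P) (hfin : Module.Finite R P)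
      (i : Y' →ₗ[R] P) (p : P →ₗ[R] Y) (hi : Function.Injective i)
      (hp : Function.Surjective p) (hex : Function.Exact i p) : IsSyzygy R M (n + 1) Y'

/-- A module which is isomorphic to a finite direct sum of copies of members of the family `X`. -/
def IsSumOf (R : Type u) [Ring R] {W : Type} (X : W → ModuleCat.{u} R) (L : ModuleCat.{u} R) :
    Prop :=
  ∃ (r : ℕ) (σ : Fin r → W), Nonempty (L ≃ₗ[R] ((l : Fin r) → X (σ l)))

section ext

variable {R : Type u} [Ring R] {N F M L : Type u}
  [AddCommGroup N] [Module R N] [AddCommGroup F] [Module R F] [AddCommGroup M] [Module R M]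
  [AddCommGroup L] [Module R L]

/-- The short exact sequence in the category of modules. -/
lemma SES.shortExact (E : SES R N F M) :
    (ShortComplex.mk (ModuleCat.ofHom E.f) (ModuleCat.ofHom E.g) (by
      ext x; exact E.exact.apply_apply_eq_zero x)).ShortExact := by
  have hmono : Mono (ModuleCat.ofHom E.f) := (ModuleCat.mono_iff_injective _).2 E.inj
  have hepi : Epi (ModuleCat.ofHom E.g) := (ModuleCat.epi_iff_surjective _).2 E.surj
  refine ShortComplex.ShortExact.mk' ?_ hmono hepi
  rw [ShortComplex.moduleCat_exact_iff]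
  intro x hx
  exact (E.exact x).1 hx

/-- Vanishing of `Ext^n_R(M, L)`. -/
def EZ (R : Type u) [Ring R] (M L : Type u) [AddCommGroup M] [Module R M]
    [AddCommGroup L] [Module R L] (n : ℕ) : Prop :=
  Subsingleton (Ext (ModuleCat.of R M) (ModuleCat.of R L) n)

/-- Extension of maps from the vanishing of `Ext^1`. -/
lemma SES.extend (E : SES R N F M) (h : EZ R M L 1) :
    ∀ f : N →ₗ[R] L, ∃ g : F →ₗ[R] L, g ∘ₗ E.f = f := by
  intro f
  have hS := E.shortExact
  have hsub : Subsingleton (Ext (ModuleCat.of R M) (ModuleCat.of R L) 1) := h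
  obtain ⟨x₂, hx₂⟩ := Ext.contravariant_sequence_exact₁ hS (ModuleCat.of R L)
    (Ext.mk₀ (ModuleCat.ofHom f)) (n₁ := 1) rfl
    (Subsingleton.elim (α := Ext (ModuleCat.of R M) (ModuleCat.of R L) 1) _ _)
  refine ⟨(Ext.homEquiv₀ x₂).hom, ?_⟩
  rw [← Ext.mk₀_homEquiv₀_apply x₂, Ext.mk₀_comp_mk₀] at hx₂
  have := (Ext.mk₀_bijective _ _).1 hx₂
  have h2 := congrArg ModuleCat.Hom.hom this
  simpa using h2

/-- Dimension shifting in the first variable. -/
lemma SES.shift_contra [Module.Projective R F] (E : SES R N F M) {n : ℕ} (hn : 1 ≤ n)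
    (h : EZ R M L (n + 1)) : EZ R N L n := by
  have hS := E.shortExact
  have hproj : Projective (ModuleCat.of R F) :=
    (IsProjective.iff_projective F).1 inferInstance
  have key : ∀ x : Ext (ModuleCat.of R N) (ModuleCat.of R L) n, x = 0 := by
    intro x
    have h' : EZ R M L (1 + n) := by rwa [add_comm] at h
    have hsub : Subsingleton (Ext (ModuleCat.of R M) (ModuleCat.of R L) (1 + n)) := h'
    obtain ⟨x₂, hx₂⟩ := Ext.contravariant_sequence_exact₁ hS (ModuleCat.of R L)
      x (n₁ := 1 + n) rfl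
      (Subsingleton.elim (α := Ext (ModuleCat.of R M) (ModuleCat.of R L) (1 + n)) _ _)
    obtain ⟨m, rfl⟩ : ∃ m, n = m + 1 := ⟨n - 1, by omega⟩
    have h0 : x₂ = 0 := Ext.eq_zero_of_projective (P := ModuleCat.of R F) x₂
    rw [← hx₂, h0, Ext.comp_zero]
  exact ⟨fun a b => by rw [key a, key b]⟩

/-- Dimension shifting in the second variable. -/
lemma SES.shift_co (E : SES R N F M) {n : ℕ} (h : EZ R L M n) (hF : EZ R L F (n + 1)) :
    EZ R L N (n + 1) := by
  have hS := E.shortExact
  have key : ∀ x : Ext (ModuleCat.of R L) (ModuleCat.of R N) (n + 1), x = 0 := by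
    intro x
    have hsub : Subsingleton (Ext (ModuleCat.of R L) (ModuleCat.of R F) (n + 1)) := hF
    obtain ⟨x₃, hx₃⟩ := Ext.covariant_sequence_exact₁ (ModuleCat.of R L) hS x
      (Subsingleton.elim (α := Ext (ModuleCat.of R L) (ModuleCat.of R F) (n + 1)) _ _)
      (n₀ := n) rfl
    have hsub' : Subsingleton (Ext (ModuleCat.of R L) (ModuleCat.of R M) n) := h
    have h0 : x₃ = 0 := Subsingleton.elim (α := Ext (ModuleCat.of R L) (ModuleCat.of R M) n) _ _
    rw [← hx₃, h0, Ext.zero_comp]
  exact ⟨fun a b => by rw [key a, key b]⟩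

/-- `Ext^n(M, -)` vanishes on finitely generated projective modules if it vanishes on `R`. -/
lemma EZ.of_projective [Module.Finite R L] [Module.Projective R L] {n : ℕ} (h : EZ R M R n) :
    EZ R M L n := by
  obtain ⟨m, f, hf⟩ := Module.Finite.exists_fin' R L
  obtain ⟨s, hs⟩ := Module.projective_lifting_property f LinearMap.id hf
  let a : Fin m → (R →ₗ[R] L) := fun j => f ∘ₗ LinearMap.single R (fun _ => R) j
  let b : Fin m → (L →ₗ[R] R) := fun j => LinearMap.proj j ∘ₗ s
  have hid : ∀ y : L, ∑ j, a j (b j y) = y := by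
    intro y
    have h1 := congrArg (fun g => g y) hs
    simp only [LinearMap.comp_apply, LinearMap.id_apply] at h1
    conv_rhs => rw [← h1]
    have h2 : s y = ∑ j, Pi.single j (s y j) := by
      rw [Finset.univ_sum_single]
    conv_rhs => rw [h2]
    rw [map_sum]
    rfl
  have key : ∀ x : Ext (ModuleCat.of R M) (ModuleCat.of R L) n, x = 0 := by
    intro x
    have h1 : (𝟙 (ModuleCat.of R L)) = ∑ j, ModuleCat.ofHom (b j) ≫ ModuleCat.ofHom (a j) := by
      ext y
      rw [ModuleCat.hom_sum]
      simp only [ModuleCat.hom_id, LinearMap.id_apply, ModuleCat.hom_comp, ModuleCat.hom_ofHom,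
        LinearMap.coe_sum, Finset.sum_apply, LinearMap.comp_apply]
      exact (hid y).symm
    have h2 : x = x.comp (Ext.mk₀ (𝟙 (ModuleCat.of R L))) (add_zero n) := by
      rw [Ext.comp_mk₀_id]
    rw [h2, h1, Ext.mk₀_sum, Ext.comp_sum]
    refine Finset.sum_eq_zero (fun j _ => ?_)
    rw [← Ext.mk₀_comp_mk₀, ← Ext.comp_assoc_of_third_deg_zero]
    have hsub : Subsingleton (Ext (ModuleCat.of R M) (ModuleCat.of R R) n) := h
    have : x.comp (Ext.mk₀ (ModuleCat.ofHom (b j))) (add_zero n) = 0 :=
      Subsingleton.elim (α := Ext (ModuleCat.of R M) (ModuleCat.of R R) n) _ _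
    rw [this, Ext.zero_comp]
  exact ⟨fun a b => by rw [key a, key b]⟩

/-- If the left hand term of a short exact sequence is a retract, the sequence splits. -/
lemma SES.projective_of_retract [Module.Projective R F] (E : SES R N F M)
    (r : F →ₗ[R] N) (hr : r ∘ₗ E.f = LinearMap.id) : Module.Projective R M := by
  have hker : LinearMap.ker E.g ≤ LinearMap.ker (LinearMap.id - E.f ∘ₗ r) := by
    intro x hx
    obtain ⟨a, rfl⟩ := (E.exact x).1 hx
    have : r (E.f a) = a := congrArg (fun g => g a) hr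
    rw [LinearMap.mem_ker, LinearMap.sub_apply, LinearMap.comp_apply, this, LinearMap.id_apply,
      sub_self]
  let s : M →ₗ[R] F := ((LinearMap.ker E.g).liftQ (LinearMap.id - E.f ∘ₗ r) hker) ∘ₗ
    (E.g.quotKerEquivOfSurjective E.surj).symm.toLinearMap
  have hs : ∀ x, s (E.g x) = x - E.f (r x) := by
    intro x
    have : (E.g.quotKerEquivOfSurjective E.surj).symm (E.g x) = (LinearMap.ker E.g).mkQ x := by
      rw [LinearEquiv.symm_apply_eq]
      rfl
    simp only [s, LinearMap.comp_apply, LinearEquiv.coe_coe, this]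
    simp
  refine Module.Projective.of_split s E.g ?_
  ext m
  obtain ⟨x, rfl⟩ := E.surj m
  rw [LinearMap.comp_apply, hs, map_sub, E.exact.apply_apply_eq_zero, sub_zero,
    LinearMap.id_apply]

end ext

section syz

variable {R : Type u} [Ring R] {M : ModuleCat.{u} R}

lemma IsSyzygy.finite [IsNoetherianRing R] [Module.Finite R M] {n : ℕ} {Y : ModuleCat.{u} R}
    (h : IsSyzygy R M n Y) : Module.Finite R Y := by
  induction h with
  | zero => infer_instance
  | succ hY hproj hfin i p hi hp hex ih =>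
    exact Module.Finite.of_injective i hi

lemma IsSyzygy.trans {n m : ℕ} {L Y : ModuleCat.{u} R} (h : IsSyzygy R M n L)
    (h' : IsSyzygy R L m Y) : IsSyzygy R M (n + m) Y := by
  induction h' with
  | zero => exact h
  | succ hY hproj hfin i p hi hp hex ih =>
    exact IsSyzygy.succ ih hproj hfin i p hi hp hex

/-- a finitely generated module has a finitely generated projective presentation -/
lemma exists_presentation [IsNoetherianRing R] (Y : ModuleCat.{u} R) [Module.Finite R Y] :
    ∃ (P N : ModuleCat.{u} R), Module.Projective R P ∧ Module.Finite R P ∧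
      Module.Finite R N ∧ Nonempty (SES R N P Y) := by
  obtain ⟨m, f, hf⟩ := Module.Finite.exists_fin' R Y
  refine ⟨ModuleCat.of R (Fin m → R), ModuleCat.of R (LinearMap.ker f), ?_, ?_, ?_, ?_⟩
  · change Module.Projective R (Fin m → R)
    infer_instance
  · change Module.Finite R (Fin m → R)
    infer_instance
  · change Module.Finite R (LinearMap.ker f)
    infer_instance
  · exact ⟨⟨(LinearMap.ker f).subtype, f, Submodule.injective_subtype _, hf,
      LinearMap.exact_subtype_ker_map f⟩⟩

lemma exists_syzygy [IsNoetherianRing R] (M : ModuleCat.{u} R) [Module.Finite R M] (n : ℕ) :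
    ∃ Y, IsSyzygy R M n Y := by
  induction n with
  | zero => exact ⟨M, IsSyzygy.zero⟩
  | succ n ih =>
    obtain ⟨Y, hY⟩ := ih
    have := hY.finite
    obtain ⟨P, N, h1, h2, h3, ⟨E⟩⟩ := exists_presentation Y
    exact ⟨N, IsSyzygy.succ hY h1 h2 E.f E.g E.inj E.surj E.exact⟩

lemma IsSyzygy.pred {n : ℕ} {Y : ModuleCat.{u} R} (h : IsSyzygy R M (n + 1) Y) :
    ∃ (P Y' : ModuleCat.{u} R), IsSyzygy R M n Y' ∧ Module.Projective R P ∧
      Module.Finite R P ∧ Nonempty (SES R Y P Y') := by
  cases h with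
  | succ hY hproj hfin i p hi hp hex => exact ⟨_, _, hY, hproj, hfin, ⟨⟨i, p, hi, hp, hex⟩⟩⟩

/-- Vanishing of `Ext^n(Y, Z)` for a syzygy `Y`. -/
lemma IsSyzygy.ez_left {m : ℕ} {Y : ModuleCat.{u} R} (h : IsSyzygy R M m Y)
    {Z : ModuleCat.{u} R} : ∀ n, 1 ≤ n → EZ R M Z (n + m) → EZ R Y Z n := by
  induction h with
  | zero =>
    intro n _ h
    exact h
  | succ hY hproj hfin i p hi hp hex ih =>
    rename_i m' Y P Y'
    intro n hn h
    have h1 := ih (n + 1) (by omega) (by
      have : n + (m' + 1) = n + 1 + m' := by omega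
      rwa [this] at h)
    exact (SES.mk i p hi hp hex).shift_contra hn h1

/-- Vanishing of `Ext^n(M, Y)` for a syzygy `Y` of `M`. -/
lemma IsSyzygy.ez_right (hM : ∀ i, 1 ≤ i → EZ R M M i) (hR : ∀ i, 1 ≤ i → EZ R M R i)
    {m : ℕ} {Y : ModuleCat.{u} R} (h : IsSyzygy R M m Y) : ∀ n, m + 1 ≤ n → EZ R M Y n := by
  induction h with
  | zero =>
    intro n hn
    exact hM n (by omega)
  | succ hY hproj hfin i p hi hp hex ih =>
    rename_i m' Y P Y'
    intro n hn
    obtain ⟨n, rfl⟩ : ∃ k, n = k + 1 := ⟨n - 1, by omega⟩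
    exact (SES.mk i p hi hp hex).shift_co (ih n (by omega))
      (EZ.of_projective (hR (n + 1) (by omega)))

/-- A module with vanishing `Ext^i(M, R)` and a projective syzygy is projective. -/
lemma IsSyzygy.projective [IsNoetherianRing R] [Module.Finite R M]
    (hR : ∀ i, 1 ≤ i → EZ R M R i)
    {m : ℕ} {Y : ModuleCat.{u} R} (h : IsSyzygy R M m Y) (hY : Module.Projective R Y) :
    Module.Projective R M := by
  induction h with
  | zero => exact hY
  | succ hS hproj hfin i p hi hp hex ih =>
    rename_i m' Y P Y'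
    have hfin' : Module.Finite R Y' := Module.Finite.of_injective i hi
    have h1 : EZ R M Y' (1 + m') := EZ.of_projective (hR (1 + m') (by omega))
    have h2 : EZ R Y Y' 1 := hS.ez_left 1 le_rfl h1
    obtain ⟨r, hr⟩ := (SES.mk i p hi hp hex).extend h2 LinearMap.id
    exact ih ((SES.mk i p hi hp hex).projective_of_retract r hr)

end syz

end Vale.Agent.Lib.H16.IT
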