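import Mathlib
import Vale.Agent.Lib.H16.IT.Syz

/-!
Minimal projective presentations over Artinian rings, semisimple modules, and presentations of
extensions.
-/

namespace Vale.Agent.Lib.H16.IT

open CategoryTheory

universe u v

section cover

variable {R : Type u} [Ring R] [IsArtinianRing R]

/-- Modules killed by the Jacobson radical are semisimple. -/
lemma semisimple_of_killed (L : Type u) [AddCommGroup L] [Module R L]
    (h : ∀ a ∈ Ring.jacobson R, ∀ x : L, a • x = 0) : IsSemisimpleModule R L := by
  have h1 : Module.IsTorsionBySet R L (Ring.jacobson R) := fun x a => h a.1 a.2 x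
  let _ := h1.module
  exact (h1.semilinearMap.isSemisimpleModule_iff_of_bijective Function.bijective_id).2
    inferInstance

lemma module_jacobson_le (P : Type u) [AddCommGroup P] [Module R P] :
    Module.jacobson R P ≤ Ring.jacobson R • (⊤ : Submodule R P) := by
  apply Module.jacobson_le_of_eq_bot
  have : IsSemisimpleModule R (P ⧸ Ring.jacobson R • (⊤ : Submodule R P)) := by
    apply semisimple_of_killed
    intro a ha x
    obtain ⟨x, rfl⟩ := Submodule.Quotient.mk_surjective _ x
    rw [← Submodule.Quotient.mk_smul, Submodule.Quotient.mk_eq_zero]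
    exact Submodule.smul_mem_smul ha trivial
  exact IsSemisimpleModule.jacobson_eq_bot R _

/-- Finitely generated modules over Artinian rings have projective presentations with kernel in
the radical. -/
lemma exists_cover (M : ModuleCat.{u} R) [Module.Finite R M] :
    ∃ (P : ModuleCat.{u} R) (π : P →ₗ[R] M), Module.Projective R P ∧ Module.Finite R P ∧
      Function.Surjective π ∧ LinearMap.ker π ≤ Ring.jacobson R • (⊤ : Submodule R P) := by
  classical
  let S : ℕ → Prop := fun l => ∃ (P : ModuleCat.{u} R) (π : P →ₗ[R] M), Module.Projective R P ∧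
    Module.Finite R P ∧ Function.Surjective π ∧ (Module.length R P).toNat = l
  have hS : ∃ l, S l := by
    obtain ⟨m, f, hf⟩ := Module.Finite.exists_fin' R M
    exact ⟨_, ModuleCat.of R (Fin m → R), f, (inferInstance : Module.Projective R (Fin m → R)),
      (inferInstance : Module.Finite R (Fin m → R)), hf, rfl⟩
  obtain ⟨P, π, hproj, hfin, hsurj, hlen⟩ := Nat.find_spec hS
  refine ⟨P, π, hproj, hfin, hsurj, ?_⟩
  by_contra hnot
  have hnot' : ¬ LinearMap.ker π ≤ Module.jacobson R P := fun h =>
    hnot (h.trans (module_jacobson_le P))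
  rw [Module.jacobson, le_sInf_iff] at hnot'
  push Not at hnot'
  obtain ⟨Q, hQ, hQ'⟩ := hnot'
  have hQ : IsCoatom Q := hQ
  have hsimple : IsSimpleModule R (P ⧸ Q) := isSimpleModule_iff_isCoatom.2 hQ
  let g : P →ₗ[R] (P ⧸ Q) := Q.mkQ
  have hne : g ∘ₗ (LinearMap.ker π).subtype ≠ 0 := by
    intro h0
    apply hQ'
    intro x hx
    have := congrArg (fun f => f ⟨x, hx⟩) h0
    simpa [g] using this
  have hsurj' := LinearMap.surjective_of_ne_zero hne
  obtain ⟨h, hh⟩ := Module.projective_lifting_property _ g hsurj'
  let f : Module.End R P := (LinearMap.ker π).subtype ∘ₗ h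
  have hgf : ∀ x, g (f x) = g x := fun x => congrArg (fun f => f x) hh
  have hgfn : ∀ n x, g ((f ^ n) x) = g x := by
    intro n
    induction n with
    | zero => intro x; simp
    | succ n ih =>
      intro x
      rw [pow_succ, Module.End.mul_apply, ih, hgf]
  obtain ⟨n, hn⟩ := Filter.eventually_atTop.1 (LinearMap.eventually_isCompl_ker_pow_range_pow f)
  have hc := hn (n + 1) (Nat.le_succ n)
  let P' : Submodule R P := LinearMap.ker (f ^ (n + 1))
  have hproj' : Module.Projective R P' := by
    refine Module.Projective.of_split P'.subtype (P'.projectionOnto _ hc) ?_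
    ext x
    simp
  have hsurj2 : Function.Surjective (π ∘ₗ P'.subtype) := by
    intro m
    obtain ⟨p, rfl⟩ := hsurj m
    have hp : p ∈ LinearMap.ker (f ^ (n + 1)) ⊔ LinearMap.range (f ^ (n + 1)) := by
      rw [hc.sup_eq_top]; trivial
    obtain ⟨a, ha, b, hb, rfl⟩ := Submodule.mem_sup.1 hp
    refine ⟨⟨a, ha⟩, ?_⟩
    obtain ⟨c, rfl⟩ := hb
    have : π ((f ^ (n + 1)) c) = 0 := by
      rw [pow_succ', Module.End.mul_apply]
      exact (h ((f ^ n) c)).2
    rw [map_add, this, add_zero]
    rfl
  have hne' : P' ≠ ⊤ := by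
    intro htop
    have h0 : ∀ x, g x = 0 := by
      intro x
      rw [← hgfn (n + 1) x]
      have : x ∈ P' := by rw [htop]; trivial
      have : (f ^ (n + 1)) x = 0 := this
      rw [this, map_zero]
    apply hQ.1
    rw [eq_top_iff]
    intro x _
    simpa [g] using h0 x
  have hfinP : IsArtinian R P := inferInstance
  have hfinP' : IsNoetherian R P := inferInstance
  have hlt := Submodule.length_lt hne'
  have hle : Nat.find hS ≤ (Module.length R P').toNat := Nat.find_min' hS
    ⟨ModuleCat.of R P', π ∘ₗ P'.subtype, hproj', (inferInstance : Module.Finite R P'),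
      hsurj2, rfl⟩
  rw [← hlen] at hle
  have h1 : Module.length R P ≠ ⊤ := Module.length_ne_top
  have h2 : Module.length R P' ≠ ⊤ := Module.length_ne_top
  have h3 : Module.length R P ≤ Module.length R P' := by
    rw [← ENat.natCast_toNat h1, ← ENat.natCast_toNat h2]
    exact_mod_cast hle
  exact absurd hlt (not_lt.2 h3)

/-- `R / I` has finite representation type: the finitely generated modules killed by `I` are the
finite direct sums of copies of the members of a finite family. -/
def FinTypeMod (R : Type u) [Ring R] (I : Ideal R) : Prop :=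
  ∃ (w : ℕ) (X : Fin w → ModuleCat.{u} R), (∀ a, Module.Finite R (X a)) ∧
    ∀ L : ModuleCat.{u} R, Module.Finite R L → (∀ a ∈ I, ∀ x : L, a • x = 0) → IsSumOf R X L

/-- Semisimple modules: finitely many simple modules. -/
lemma finTypeMod_jacobson : FinTypeMod R (Ring.jacobson R) := by
  classical
  have hkill : ∀ a ∈ Ring.jacobson R, ∀ x : R ⧸ Ring.jacobson R, a • x = 0 := by
    intro a ha x
    obtain ⟨x, rfl⟩ := Submodule.Quotient.mk_surjective _ x
    rw [← Submodule.Quotient.mk_smul, Submodule.Quotient.mk_eq_zero]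
    exact Ideal.mul_mem_right _ _ ha
  have hss := semisimple_of_killed (R ⧸ Ring.jacobson R) hkill
  obtain ⟨n, S, e, hS⟩ := IsSemisimpleModule.exists_linearEquiv_fin_dfinsupp R
    (R ⧸ Ring.jacobson R)
  refine ⟨n, fun i => ModuleCat.of R (S i), fun i => (inferInstance : Module.Finite R (S i)), ?_⟩
  intro L hL hLk
  have hLss := semisimple_of_killed L hLk
  obtain ⟨r, T, e', hT⟩ := IsSemisimpleModule.exists_linearEquiv_fin_dfinsupp R L
  have key : ∀ i : Fin r, ∃ j : Fin n, Nonempty (T i ≃ₗ[R] S j) := by
    intro i
    have hTi := hT i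
    have hTn := IsSimpleModule.nontrivial R (T i)
    obtain ⟨t, ht⟩ := exists_ne (0 : T i)
    have hkt : Ring.jacobson R ≤ LinearMap.ker (LinearMap.toSpanSingleton R (T i) t) := by
      intro a ha
      rw [LinearMap.mem_ker, LinearMap.toSpanSingleton_apply]
      apply Subtype.ext
      exact hLk a ha t
    let q : (R ⧸ Ring.jacobson R) →ₗ[R] T i := (Ring.jacobson R).liftQ _ hkt
    have hq : q ≠ 0 := by
      intro h0
      have h1 : q ((Ring.jacobson R).mkQ 1) = 0 := by rw [h0]; rfl
      apply ht
      have h2 : q ((Ring.jacobson R).mkQ 1) = t := by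
        change ((Ring.jacobson R).liftQ _ hkt) ((Ring.jacobson R).mkQ 1) = t
        rw [Submodule.mkQ_apply, Submodule.liftQ_apply, LinearMap.toSpanSingleton_apply, one_smul]
      rw [← h2, h1]
    have hex : ∃ j : Fin n, (q ∘ₗ e.symm.toLinearMap) ∘ₗ DFinsupp.lsingle j ≠ 0 := by
      by_contra hall
      push Not at hall
      apply hq
      have h1 : q ∘ₗ e.symm.toLinearMap = 0 := by
        apply DFinsupp.lhom_ext'
        intro j
        rw [hall j, LinearMap.zero_comp]
      apply LinearMap.ext
      intro x
      have h2 := congrArg (fun f => f (e x)) h1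
      simpa using h2
    obtain ⟨j, hj⟩ := hex
    have hSj := hS j
    exact ⟨j, ⟨(LinearEquiv.ofBijective _ (LinearMap.bijective_of_ne_zero hj)).symm⟩⟩
  choose σ hσ using key
  refine ⟨r, σ, ⟨(e'.trans (DFinsupp.linearEquivFunOnFintype (R := R))).trans
    (LinearEquiv.piCongrRight (fun i => (hσ i).some))⟩⟩

end cover

end Vale.Agent.Lib.H16.IT
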