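import Mathlib
import Vale.Agent.Lib.H16.IT.Syz

/-!
The Auslander-Reiten conjecture for modules whose syzygies have presentations by modules from a
finite family.
-/

namespace Vale.Agent.Lib.H16.IT

open CategoryTheory Abelian

universe u v

/-- restriction of scalars along the structure map -/
abbrev kmod (K : Type v) [CommRing K] (R : Type u) [Ring R] [Algebra K R] (Y : Type u)
    [AddCommGroup Y] [Module R Y] : Module K Y := Module.compHom Y (algebraMap K R)

lemma ktower (K : Type v) [CommRing K] (R : Type u) [Ring R] [Algebra K R] (Y : Type u)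
    [AddCommGroup Y] [Module R Y] :
    letI := kmod K R Y
    IsScalarTower K R Y := by
  let _ := kmod K R Y
  refine ⟨fun c r y => ?_⟩
  change (c • r) • y = algebraMap K R c • (r • y)
  rw [Algebra.smul_def, mul_smul]

section

variable {K : Type v} [CommRing K] [IsArtinianRing K] {R : Type u} [Ring R] [Algebra K R]
  [Module.Finite K R]

/-- Additivity of `hl` on finite direct sums of members of a family. -/
lemma hl_sum {W : Type} [Fintype W] [DecidableEq W] (X : W → Type u)
    [∀ w, AddCommGroup (X w)] [∀ w, Module R (X w)] [∀ w, Module K (X w)]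
    [∀ w, IsScalarTower K R (X w)] [∀ w, Module.Finite R (X w)]
    (A : Type u) [AddCommGroup A] [Module R A] [Module K A] [IsScalarTower K R A]
    {r : ℕ} (σ : Fin r → W) (e : A ≃ₗ[R] ((l : Fin r) → X (σ l)))
    (Z : Type u) [AddCommGroup Z] [Module R Z] [Module.Finite R Z] :
    (hl K R Z A : ℚ) = ∑ w, (Finset.univ.filter (fun l => σ l = w)).card * (hl K R Z (X w) : ℚ) := by
  rw [hl_equiv e, hl_pi]
  push_cast
  have h1 : ∀ w, (Finset.univ.filter (fun l => σ l = w)).card * (hl K R Z (X w) : ℚ) =
      ∑ l : Fin r, if σ l = w then (hl K R Z (X w) : ℚ) else 0 := by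
    intro w
    rw [← Finset.sum_filter, Finset.sum_const, nsmul_eq_mul]
  simp only [h1]
  rw [Finset.sum_comm]
  refine Finset.sum_congr rfl (fun l _ => ?_)
  rw [Finset.sum_ite_eq, if_pos (Finset.mem_univ _)]

theorem main_module (K : Type v) [CommRing K] [IsArtinianRing K] {R : Type u} [Ring R]
    [Algebra K R] [Module.Finite K R]
    (M : ModuleCat.{u} R) (hfin : Module.Finite R M)
    (hM : ∀ i, 1 ≤ i → EZ R M M i) (hR : ∀ i, 1 ≤ i → EZ R M R i)
    {W : Type} [Finite W] (X : W → ModuleCat.{u} R) (hX : ∀ w, Module.Finite R (X w))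
    (hinf : ∀ m : ℕ, ∃ n > m, ∃ Y A B : ModuleCat.{u} R, IsSyzygy R M n Y ∧
      IsSumOf R X A ∧ IsSumOf R X B ∧ Nonempty (SES R B A Y)) :
    Module.Projective R M := by
  classical
  have hK : IsNoetherian K R := inferInstance
  have hRn : IsNoetherianRing R := isNoetherian_of_tower K hK
  have : Fintype W := Fintype.ofFinite W
  have hinf' : ∀ m : ℕ, ∃ n > m, 1 ≤ n ∧ ∃ Y A B : ModuleCat.{u} R, IsSyzygy R M n Y ∧
      IsSumOf R X A ∧ IsSumOf R X B ∧ Nonempty (SES R B A Y) := by
    intro m
    obtain ⟨n, hn, h⟩ := hinf m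
    exact ⟨n, hn, by omega, h⟩
  obtain ⟨φ, hφ, hP⟩ := Nat.exists_strictMono_subsequence hinf'
  choose h1 Y A B hY hA hB EA using hP
  have EA' := fun s => (EA s).some
  choose ra σa hea using hA
  choose rb σb heb using hB
  have hYfin : ∀ s, Module.Finite R (Y s) := fun s => (hY s).finite
  have hprev : ∀ s, ∃ (P Y' : ModuleCat.{u} R), IsSyzygy R M (φ s - 1) Y' ∧
      Module.Projective R P ∧ Module.Finite R P ∧ Nonempty (SES R (Y s) P Y') := by
    intro s
    have := hY s
    obtain ⟨k, hk⟩ : ∃ k, φ s = k + 1 := ⟨φ s - 1, by have := h1 s; omega⟩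
    rw [hk] at this
    have h2 := this.pred
    rw [hk]
    exact h2
  choose P Y' hY' hPproj hPfin EP using hprev
  have EP' := fun s => (EP s).some
  have hnext : ∀ s, ∃ (Q N : ModuleCat.{u} R), Module.Projective R Q ∧ Module.Finite R Q ∧
      Module.Finite R N ∧ Nonempty (SES R N Q (Y s)) := fun s => by
    have := hYfin s
    exact exists_presentation (Y s)
  choose Q N hQproj hQfin hNfin EQ using hnext
  have EQ' := fun s => (EQ s).some
  have hY'fin : ∀ s, Module.Finite R (Y' s) := fun s => (hY' s).finite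
  have hAfin : ∀ s, Module.Finite R (A s) := fun s =>
    Module.Finite.equiv (hea s).some.symm
  -- scalar structures
  let iX : ∀ w, Module K (X w) := fun w => kmod K R (X w)
  have tX : ∀ w, IsScalarTower K R (X w) := fun w => ktower K R (X w)
  let iY : ∀ s, Module K (Y s) := fun s => kmod K R (Y s)
  have tY : ∀ s, IsScalarTower K R (Y s) := fun s => ktower K R (Y s)
  let iA : ∀ s, Module K (A s) := fun s => kmod K R (A s)
  have tA : ∀ s, IsScalarTower K R (A s) := fun s => ktower K R (A s)
  let iB : ∀ s, Module K (B s) := fun s => kmod K R (B s)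
  have tB : ∀ s, IsScalarTower K R (B s) := fun s => ktower K R (B s)
  have hres := core (K := K) (R := R) (fun w => (X w : Type u)) (fun s => (Y s : Type u))
    (fun s => (A s : Type u)) (fun s => (B s : Type u)) (fun s => (Q s : Type u))
    (fun s => (N s : Type u)) (fun s => (P s : Type u)) (fun s => (Y' s : Type u))
    EQ' EP' EA'
    (fun t w => ((Finset.univ.filter (fun l => σa t l = w)).card : ℚ) -
      ((Finset.univ.filter (fun l => σb t l = w)).card : ℚ))
    (by
      intro t Z _ _ _
      rw [hl_sum (K := K) (fun w => (X w : Type u)) (A t) (σa t) (hea t).some Z,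
        hl_sum (K := K) (fun w => (X w : Type u)) (B t) (σb t) (heb t).some Z,
        ← Finset.sum_sub_distrib]
      exact Finset.sum_congr rfl (fun w _ => by ring))
    (by
      intro s t hst
      have hst' : φ t ≤ φ s := hφ.monotone hst
      exact (EQ' s).extend ((hY s).ez_left 1 le_rfl
        ((hY t).ez_right hM hR (1 + φ s) (by omega))))
    (by
      intro s t hst
      have hst' : φ t < φ s := hφ hst
      have := h1 s
      exact (EP' s).extend ((hY' s).ez_left 1 le_rfl
        ((hY t).ez_right hM hR (1 + (φ s - 1)) (by omega))))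
    (by
      intro s t hst h
      have hst' : φ t < φ (t + 1) := hφ (by omega)
      have hst'' : φ (t + 1) < φ s := hφ (by omega)
      obtain ⟨k, hk⟩ : ∃ k, φ s - 1 = k + 1 := ⟨φ s - 2, by omega⟩
      have h2 := hY' s
      rw [hk] at h2
      obtain ⟨P₂, Y₂, hY₂, hp₂, hf₂, ⟨E₂⟩⟩ := h2.pred
      exact lift_of_ext (EA' t) E₂.f h (E₂.extend (hY₂.ez_left 1 le_rfl
        ((hY t).ez_right hM hR (1 + k) (by omega))) h))
  obtain ⟨s, hs⟩ := hres
  exact (hY s).projective hR hs

end

end Vale.Agent.Lib.H16.IT
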