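import Mathlib
import Vale.Agent.Lib.H16.IT.Cover
import Vale.Agent.Lib.H16.IT.Main

/-!
Presentations of extensions and the Auslander-Reiten conjecture for Artin algebras with two
ideals.
-/

namespace Vale.Agent.Lib.H16.IT

open CategoryTheory

universe u v

section pres

variable {R : Type u} [Ring R]

/-- An extension of `C` by `A` is a quotient of `A × Q` by `Ω`, for a projective presentation
`0 → Ω → Q → C → 0`. -/
lemma SES.pres {A Y C O Q : Type u} [AddCommGroup A] [Module R A] [AddCommGroup Y] [Module R Y]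
    [AddCommGroup C] [Module R C] [AddCommGroup O] [Module R O] [AddCommGroup Q] [Module R Q]
    [Module.Projective R Q] (E : SES R A Y C) (F : SES R O Q C) :
    Nonempty (SES R O (A × Q) Y) := by
  obtain ⟨s, hs⟩ := Module.projective_lifting_property E.g F.g E.surj
  have hs' : ∀ x, E.g (s x) = F.g x := fun x => congrArg (fun f => f x) hs
  have h1 : ∀ k : O, ∃ a : A, E.f a = - s (F.f k) := by
    intro k
    apply (E.exact _).1
    rw [map_neg, hs', F.exact.apply_apply_eq_zero, neg_zero]
  choose a ha using h1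
  refine ⟨{
    f := { toFun := fun k => (a k, F.f k), map_add' := ?_, map_smul' := ?_ }
    g := E.f.coprod s
    inj := ?_
    surj := ?_
    exact := ?_ }⟩
  · intro k k'
    refine Prod.ext ?_ (map_add _ _ _)
    apply E.inj
    change E.f (a (k + k')) = E.f (a k + a k')
    rw [map_add, ha, ha, ha, map_add, map_add, neg_add]
  · intro r k
    refine Prod.ext ?_ (map_smul _ _ _)
    apply E.inj
    change E.f (a (r • k)) = E.f (r • a k)
    rw [map_smul, ha, ha, map_smul, map_smul, smul_neg]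
  · intro k k' h
    exact F.inj (congrArg Prod.snd h)
  · intro y
    obtain ⟨x, hx⟩ := F.surj (E.g y)
    obtain ⟨b, hb⟩ := (E.exact (y - s x)).1 (by rw [map_sub, hs', hx, sub_self])
    refine ⟨(b, x), ?_⟩
    rw [LinearMap.coprod_apply, hb, sub_add_cancel]
  · rintro ⟨b, x⟩
    constructor
    · intro h
      rw [LinearMap.coprod_apply] at h
      simp only at h
      have h2 : F.g x = 0 := by
        rw [← hs', eq_neg_of_add_eq_zero_right h, map_neg, E.exact.apply_apply_eq_zero, neg_zero]
      obtain ⟨k, hk⟩ := (F.exact x).1 h2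
      refine ⟨k, ?_⟩
      refine Prod.ext ?_ hk
      apply E.inj
      change E.f (a k) = E.f b
      rw [ha, hk]
      exact (eq_neg_of_add_eq_zero_left h).symm
    · rintro ⟨k, hk⟩
      rw [← hk, LinearMap.coprod_apply]
      change E.f (a k) + s (F.f k) = 0
      rw [ha, neg_add_cancel]

/-- Products of short exact sequences. -/
def SES.pi {ι : Type} (A B C : ι → Type u) [∀ i, AddCommGroup (A i)] [∀ i, Module R (A i)]
    [∀ i, AddCommGroup (B i)] [∀ i, Module R (B i)] [∀ i, AddCommGroup (C i)]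
    [∀ i, Module R (C i)] (E : ∀ i, SES R (A i) (B i) (C i)) :
    SES R (∀ i, A i) (∀ i, B i) (∀ i, C i) where
  f := LinearMap.pi (fun i => (E i).f ∘ₗ LinearMap.proj i)
  g := LinearMap.pi (fun i => (E i).g ∘ₗ LinearMap.proj i)
  inj := by
    intro x y h
    funext i
    exact (E i).inj (congrFun h i)
  surj := by
    intro y
    choose x hx using fun i => (E i).surj (y i)
    exact ⟨x, funext hx⟩
  exact := by
    intro y
    constructor
    · intro h
      choose x hx using fun i => ((E i).exact (y i)).1 (congrFun h i)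
      exact ⟨x, funext hx⟩
    · rintro ⟨x, rfl⟩
      funext i
      exact (E i).exact.apply_apply_eq_zero (x i)

/-- Change of the outer terms by isomorphisms. -/
def SES.congr {A A' Y C C' : Type u} [AddCommGroup A] [Module R A] [AddCommGroup A'] [Module R A']
    [AddCommGroup Y] [Module R Y] [AddCommGroup C] [Module R C] [AddCommGroup C'] [Module R C']
    (E : SES R A Y C) (e : A' ≃ₗ[R] A) (e' : C ≃ₗ[R] C') : SES R A' Y C' where
  f := E.f ∘ₗ e.toLinearMap
  g := e'.toLinearMap ∘ₗ E.g
  inj := E.inj.comp e.injective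
  surj := e'.surjective.comp E.surj
  exact := by
    intro y
    constructor
    · intro h
      have : E.g y = 0 := e'.injective (by rw [map_zero]; exact h)
      obtain ⟨x, hx⟩ := (E.exact y).1 this
      exact ⟨e.symm x, by simp [hx]⟩
    · rintro ⟨x, rfl⟩
      change e' (E.g (E.f (e x))) = 0
      rw [E.exact.apply_apply_eq_zero, map_zero]

lemma isSumOf_of_fintype {W : Type} (X : W → ModuleCat.{u} R) (L : ModuleCat.{u} R) {ι : Type}
    [Fintype ι] (σ : ι → W) (e : L ≃ₗ[R] ((l : ι) → X (σ l))) : IsSumOf R X L := by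
  let ε := Fintype.equivFin ι
  exact ⟨Fintype.card ι, fun l => σ (ε.symm l),
    ⟨e.trans (LinearEquiv.piCongrLeft' R (fun i => (X (σ i) : Type u)) ε)⟩⟩

end pres

section ideals

variable {K : Type v} [CommRing K] [IsArtinianRing K] {R : Type u} [Ring R] [Algebra K R]
  [Module.Finite K R]

theorem main_ideals (K : Type v) [CommRing K] [IsArtinianRing K] {R : Type u} [Ring R]
    [Algebra K R] [Module.Finite K R] (I L : Ideal R)
    (hIL : ∀ a ∈ I, ∀ b ∈ L, ∀ c ∈ Ring.jacobson R, a * b * c = 0)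
    (hI : FinTypeMod R I) (hL : FinTypeMod R L)
    (M : ModuleCat.{u} R) (hfin : Module.Finite R M)
    (hM : ∀ i, 1 ≤ i → EZ R M M i) (hR : ∀ i, 1 ≤ i → EZ R M R i) :
    Module.Projective R M := by
  classical
  have hK : IsNoetherian K R := inferInstance
  have hRn : IsNoetherianRing R := isNoetherian_of_tower K hK
  have hK' : IsArtinian K R := inferInstance
  have hRa : IsArtinianRing R := isArtinian_of_tower K hK'
  obtain ⟨w₁, X₁, hX₁, hX₁'⟩ := hI
  obtain ⟨w₂, X₂, hX₂, hX₂'⟩ := hL
  have hpres : ∀ a : Fin w₂, ∃ (P N : ModuleCat.{u} R), Module.Projective R P ∧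
      Module.Finite R P ∧ Module.Finite R N ∧ Nonempty (SES R N P (X₂ a)) := fun a => by
    have := hX₂ a
    exact exists_presentation (X₂ a)
  choose Q O hQproj hQfin hOfin EQ using hpres
  have EQ' := fun a => (EQ a).some
  let X : Fin w₁ ⊕ (Fin w₂ ⊕ Fin w₂) → ModuleCat.{u} R := Sum.elim X₁ (Sum.elim Q O)
  refine main_module K M hfin hM hR X ?_ ?_
  · rintro (a | a | a)
    · exact hX₁ a
    · exact hQfin a
    · exact hOfin a
  · intro m
    obtain ⟨Y₀, hY₀⟩ := exists_syzygy M m
    have hY₀fin := hY₀.finite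
    obtain ⟨P, π, hproj, hPfin, hsurj, hker⟩ := exists_cover Y₀
    let Y : ModuleCat.{u} R := ModuleCat.of R (LinearMap.ker π)
    have hY : IsSyzygy R M (m + 1) Y := IsSyzygy.succ hY₀ hproj hPfin
      (LinearMap.ker π).subtype π (Submodule.injective_subtype _) hsurj
      (LinearMap.exact_subtype_ker_map π)
    have hYfin : Module.Finite R Y := hY.finite
    let D : Submodule R Y := L • (⊤ : Submodule R Y)
    have hkill : ∀ a ∈ I, ∀ b ∈ L, ∀ y : Y, (a * b) • y = 0 := by
      intro a ha b hb y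
      have h1 : ∀ z ∈ Ring.jacobson R • (⊤ : Submodule R P), (a * b) • z = 0 := by
        intro z hz
        induction hz using Submodule.smul_induction_on' with
        | smul c hc p _ => rw [← mul_smul, hIL a ha b hb c hc, zero_smul]
        | add p _ q _ hp hq => rw [smul_add, hp, hq, add_zero]
      apply Subtype.ext
      exact h1 y.1 (hker y.2)
    have hD1 : ∀ a ∈ I, ∀ x : D, a • x = 0 := by
      intro a ha x
      apply Subtype.ext
      obtain ⟨x, hx⟩ := x
      change a • x = 0
      induction hx using Submodule.smul_induction_on' with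
      | smul b hb y _ => rw [← mul_smul, hkill a ha b hb y]
      | add p _ q _ hp hq => rw [smul_add, hp, hq, add_zero]
    have hD2 : ∀ b ∈ L, ∀ x : Y ⧸ D, b • x = 0 := by
      intro b hb x
      obtain ⟨x, rfl⟩ := Submodule.Quotient.mk_surjective _ x
      rw [← Submodule.Quotient.mk_smul, Submodule.Quotient.mk_eq_zero]
      exact Submodule.smul_mem_smul hb trivial
    obtain ⟨r₁, σ₁, ⟨e₁⟩⟩ := hX₁' (ModuleCat.of R D) (inferInstance : Module.Finite R D) hD1
    obtain ⟨r₂, σ₂, ⟨e₂⟩⟩ := hX₂' (ModuleCat.of R (Y ⧸ D))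
      (inferInstance : Module.Finite R (Y ⧸ D)) hD2
    have E₀ : SES R D Y (Y ⧸ D) := ⟨D.subtype, D.mkQ, Submodule.injective_subtype _,
      Submodule.mkQ_surjective _, LinearMap.exact_subtype_mkQ D⟩
    have E₁ := E₀.congr e₁.symm e₂
    have E₂ := SES.pi _ _ _ (fun l : Fin r₂ => EQ' (σ₂ l))
    have hQproj' : ∀ l : Fin r₂, Module.Projective R (Q (σ₂ l)) := fun l => hQproj _
    have hprojpi : Module.Projective R (∀ l : Fin r₂, Q (σ₂ l)) :=
      Module.Projective.of_equiv (DFinsupp.linearEquivFunOnFintype (R := R)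
        (M := fun l : Fin r₂ => (Q (σ₂ l) : Type u)))
    obtain ⟨E⟩ := E₁.pres E₂
    refine ⟨m + 1, Nat.lt_succ_self m, Y,
      ModuleCat.of R ((∀ l : Fin r₁, X₁ (σ₁ l)) × (∀ l : Fin r₂, Q (σ₂ l))),
      ModuleCat.of R (∀ l : Fin r₂, O (σ₂ l)), hY, ?_, ?_, ⟨E⟩⟩
    · refine isSumOf_of_fintype X _ (ι := Fin r₁ ⊕ Fin r₂)
        (Sum.elim (fun l => Sum.inl (σ₁ l)) (fun l => Sum.inr (Sum.inl (σ₂ l)))) ?_
      exact (LinearEquiv.sumPiEquivProdPi R (Fin r₁) (Fin r₂)
        (fun l => (X ((Sum.elim (fun l => Sum.inl (σ₁ l)) (fun l => Sum.inr (Sum.inl (σ₂ l)))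
          : Fin r₁ ⊕ Fin r₂ → Fin w₁ ⊕ (Fin w₂ ⊕ Fin w₂)) l) : Type u))).symm
    · exact isSumOf_of_fintype X _ (ι := Fin r₂) (fun l => Sum.inr (Sum.inr (σ₂ l)))
        (LinearEquiv.refl R _)

end ideals

end Vale.Agent.Lib.H16.IT
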