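import Mathlib
import Vale.Agent.Lib.H16.IT.Pres

/-!
Direct summands of finite direct sums of copies of one module, and the existence part of the
Krull-Schmidt theorem.
-/

namespace Vale.Agent.Lib.H16.IT

open CategoryTheory

universe u v

/-- `L` belongs to `add V`: it is a direct summand of a finite direct sum of copies of `V`. -/
def IsAdd (R : Type u) [Ring R] (V L : ModuleCat.{u} R) : Prop :=
  ∃ (r : ℕ) (i : L →ₗ[R] (Fin r → V)) (p : (Fin r → V) →ₗ[R] L), p ∘ₗ i = LinearMap.id

/-- Indecomposable modules. -/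
def Indec (R : Type u) [Ring R] (L : ModuleCat.{u} R) : Prop :=
  Nontrivial L ∧ ∀ A B : Submodule R L, IsCompl A B → A = ⊥ ∨ B = ⊥

section

variable {R : Type u} [Ring R] [IsArtinianRing R]

lemma exists_decomp : ∀ (n : ℕ) (L : ModuleCat.{u} R), Module.Finite R L →
    (Module.length R L).toNat ≤ n →
    ∃ (ι : Type) (_ : Fintype ι) (T : ι → ModuleCat.{u} R), (∀ i, Module.Finite R (T i)) ∧
      (∀ i, Indec R (T i)) ∧ Nonempty (L ≃ₗ[R] ((i : ι) → T i)) := by
  intro n
  induction n with
  | zero =>
    intro L hL hlen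
    have h1 : Module.length R L ≠ ⊤ := Module.length_ne_top
    have h2 : Module.length R L = 0 := by
      rw [← ENat.natCast_toNat h1, Nat.le_zero.1 hlen]
      rfl
    have : Subsingleton L := Module.length_eq_zero_iff.1 h2
    exact ⟨Empty, inferInstance, fun e => e.elim, fun e => e.elim, fun e => e.elim,
      ⟨0⟩⟩
  | succ n ih =>
    intro L hL hlen
    by_cases hnt : Nontrivial L
    · by_cases hind : Indec R L
      · exact ⟨Unit, inferInstance, fun _ => L, fun _ => hL, fun _ => hind,
          ⟨(LinearEquiv.funUnique Unit R L).symm⟩⟩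
      · have : ∃ A B : Submodule R L, IsCompl A B ∧ A ≠ ⊥ ∧ B ≠ ⊥ := by
          by_contra hno
          push Not at hno
          apply hind
          refine ⟨hnt, fun A B hAB => ?_⟩
          by_cases hA : A = ⊥
          · exact Or.inl hA
          · exact Or.inr (hno A B hAB hA)
        obtain ⟨A, B, hAB, hA, hB⟩ := this
        have hA' : A ≠ ⊤ := by
          intro h
          apply hB
          have := hAB.inf_eq_bot
          rwa [h, top_inf_eq] at this
        have hB' : B ≠ ⊤ := by
          intro h
          apply hA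
          have := hAB.inf_eq_bot
          rwa [h, inf_top_eq] at this
        have hlt : ∀ C : Submodule R L, C ≠ ⊤ → (Module.length R C).toNat ≤ n := by
          intro C hC
          have h3 := Submodule.length_lt hC
          have h1 : Module.length R L ≠ ⊤ := Module.length_ne_top
          have h2 : Module.length R C ≠ ⊤ := Module.length_ne_top
          rw [← ENat.natCast_toNat h1, ← ENat.natCast_toNat h2] at h3
          have h4 : (Module.length R C).toNat < (Module.length R L).toNat := by exact_mod_cast h3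
          omega
        obtain ⟨ι₁, f₁, T₁, hf₁, hi₁, ⟨e₁⟩⟩ := ih (ModuleCat.of R A)
          (inferInstance : Module.Finite R A) (hlt A hA')
        obtain ⟨ι₂, f₂, T₂, hf₂, hi₂, ⟨e₂⟩⟩ := ih (ModuleCat.of R B)
          (inferInstance : Module.Finite R B) (hlt B hB')
        refine ⟨ι₁ ⊕ ι₂, inferInstance, Sum.elim T₁ T₂, ?_, ?_, ⟨?_⟩⟩
        · rintro (i | i)
          · exact hf₁ i
          · exact hf₂ i
        · rintro (i | i)
          · exact hi₁ i
          · exact hi₂ i
        · exact ((Submodule.prodEquivOfIsCompl A B hAB).symm.trans (e₁.prodCongr e₂)).trans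
            (LinearEquiv.sumPiEquivProdPi R ι₁ ι₂
              (fun l => ((Sum.elim T₁ T₂ l : ModuleCat.{u} R) : Type u))).symm
    · have : Subsingleton L := not_nontrivial_iff_subsingleton.1 hnt
      exact ⟨Empty, inferInstance, fun e => e.elim, fun e => e.elim, fun e => e.elim,
        ⟨0⟩⟩

lemma Indec.isLocalRing {L : ModuleCat.{u} R} [Module.Finite R L] (h : Indec R L) :
    IsLocalRing (Module.End R L) := by
  have hnt := h.1
  have hart : IsArtinian R L := inferInstance
  have hnoe : IsNoetherian R L := inferInstance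
  refine IsLocalRing.of_isUnit_or_isUnit_one_sub_self (fun f => ?_)
  obtain ⟨n, hn⟩ := Filter.eventually_atTop.1 (LinearMap.eventually_isCompl_ker_pow_range_pow f)
  have hc := hn (n + 1) (Nat.le_succ n)
  rcases h.2 _ _ hc with h0 | h0
  · left
    have hr : LinearMap.range (f ^ (n + 1)) = ⊤ := by
      have := hc.sup_eq_top
      rwa [h0, bot_sup_eq] at this
    have hbij : Function.Bijective (f ^ (n + 1)) :=
      ⟨LinearMap.ker_eq_bot.1 h0, LinearMap.range_eq_top.1 hr⟩
    have hu : IsUnit (f ^ (n + 1)) := (Module.End.isUnit_iff _).2 hbij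
    exact (isUnit_pow_iff (Nat.succ_ne_zero n)).1 hu
  · right
    have h1 : f ^ (n + 1) = 0 := LinearMap.range_eq_bot.1 h0
    exact IsNilpotent.isUnit_one_sub ⟨n + 1, h1⟩

/-- An indecomposable direct summand of a finite direct sum of indecomposable modules is
isomorphic to one of them. -/
lemma exists_iso_of_summand {κ : Type} [Fintype κ] [DecidableEq κ] (T : κ → ModuleCat.{u} R)
    (hT : ∀ k, Indec R (T k)) (L : ModuleCat.{u} R) [Module.Finite R L] (hL : Indec R L)
    (i : L →ₗ[R] ((k : κ) → T k)) (p : ((k : κ) → T k) →ₗ[R] L) (hpi : p ∘ₗ i = LinearMap.id) :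
    ∃ k, Nonempty (L ≃ₗ[R] T k) := by
  have hloc := hL.isLocalRing
  let a : ∀ k, L →ₗ[R] T k := fun k => LinearMap.proj k ∘ₗ i
  let b : ∀ k, T k →ₗ[R] L := fun k => p ∘ₗ LinearMap.single R (fun k => (T k : Type u)) k
  have hsum : ∑ k, ((b k ∘ₗ a k : L →ₗ[R] L) : Module.End R L) = 1 := by
    ext x
    have h1 := congrArg (fun f => f x) hpi
    simp only [LinearMap.comp_apply, LinearMap.id_apply] at h1
    rw [LinearMap.sum_apply, Module.End.one_apply]
    conv_rhs => rw [← h1]
    have h2 : i x = ∑ k, Pi.single k (i x k) := by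
      rw [Finset.univ_sum_single]
    conv_rhs => rw [h2]
    rw [map_sum]
    rfl
  obtain ⟨k, -, hk⟩ := IsLocalRing.exists_of_isUnit_sum (hsum ▸ isUnit_one)
  obtain ⟨w, hw⟩ := hk
  let u : Module.End R L := ((w⁻¹ : (Module.End R L)ˣ) : Module.End R L)
  have hu : ∀ x, u (b k (a k x)) = x := by
    intro x
    have h1 : (u * (b k ∘ₗ a k : L →ₗ[R] L)) = 1 := by
      rw [← hw]
      exact Units.inv_mul w
    exact congrArg (fun f => f x) h1
  have hinj : Function.Injective (a k) := by
    intro x y hxy
    rw [← hu x, ← hu y, hxy]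
  have hcompl : IsCompl (LinearMap.range (a k)) (LinearMap.ker (u ∘ₗ b k)) := by
    constructor
    · rw [disjoint_iff, eq_bot_iff]
      rintro _ ⟨⟨x, rfl⟩, hx⟩
      have h1 : u (b k (a k x)) = 0 := hx
      rw [hu] at h1
      rw [h1, map_zero]
      exact Submodule.zero_mem _
    · rw [codisjoint_iff, eq_top_iff]
      intro y _
      refine Submodule.mem_sup.2 ⟨a k (u (b k y)), ⟨_, rfl⟩, y - a k (u (b k y)), ?_,
        add_sub_cancel _ _⟩
      change u (b k (y - a k (u (b k y)))) = 0
      rw [map_sub, map_sub, hu, sub_self]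
  refine ⟨k, ⟨LinearEquiv.ofBijective (a k) ⟨hinj, ?_⟩⟩⟩
  rcases (hT k).2 _ _ hcompl with h0 | h0
  · exfalso
    have hnt := hL.1
    obtain ⟨x, hx⟩ := exists_ne (0 : L)
    apply hx
    apply hinj
    rw [map_zero]
    have : a k x ∈ LinearMap.range (a k) := ⟨x, rfl⟩
    rw [h0] at this
    exact this
  · rw [← LinearMap.range_eq_top]
    have := hcompl.sup_eq_top
    rwa [h0, sup_bot_eq] at this

/-- For a finitely generated module `V` there is a finite family of modules such that the modules
in `add V` are the finite direct sums of members of the family. -/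
lemma exists_family (V : ModuleCat.{u} R) (hV : Module.Finite R V) :
    ∃ (W : Type) (_ : Fintype W) (X : W → ModuleCat.{u} R), (∀ w, Module.Finite R (X w)) ∧
      ∀ L : ModuleCat.{u} R, IsAdd R V L → IsSumOf R X L := by
  classical
  obtain ⟨W, hW, X, hX, hind, ⟨e⟩⟩ := exists_decomp _ V hV le_rfl
  refine ⟨W, hW, X, hX, ?_⟩
  rintro L ⟨r, i, p, hpi⟩
  have hsurj : Function.Surjective p := fun x => ⟨i x, congrArg (fun f => f x) hpi⟩
  have hL : Module.Finite R L := Module.Finite.of_surjective p hsurj
  obtain ⟨ι, hι, T, hT, hTind, ⟨e'⟩⟩ := exists_decomp _ L hL le_rfl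
  -- the module `V^r` as a product
  let E : (Fin r → V) ≃ₗ[R] ((q : (Σ _ : Fin r, W)) → X q.2) :=
    (LinearEquiv.piCongrRight (fun _ => e)).trans
      { toFun := fun f q => f q.1 q.2
        invFun := fun f a b => f ⟨a, b⟩
        map_add' := fun _ _ => rfl
        map_smul' := fun _ _ => rfl
        left_inv := fun _ => rfl
        right_inv := fun _ => rfl }
  have key : ∀ a : ι, ∃ w : W, Nonempty (T a ≃ₗ[R] X w) := by
    intro a
    have hTa := hT a
    have := exists_iso_of_summand (fun q : (Σ _ : Fin r, W) => X q.2) (fun q => hind q.2) (T a)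
      (hTind a)
      (E.toLinearMap ∘ₗ i ∘ₗ e'.symm.toLinearMap ∘ₗ
        LinearMap.single R (fun a => (T a : Type u)) a)
      (LinearMap.proj a ∘ₗ e'.toLinearMap ∘ₗ p ∘ₗ E.symm.toLinearMap) (by
        ext x
        have h1 : ∀ y, p (i y) = y := fun y => congrArg (fun f => f y) hpi
        simp [h1])
    obtain ⟨q, hq⟩ := this
    exact ⟨q.2, hq⟩
  choose σ hσ using key
  exact isSumOf_of_fintype X L σ (e'.trans (LinearEquiv.piCongrRight (fun a => (hσ a).some)))

end

end Vale.Agent.Lib.H16.IT
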